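import Mathlib

/-!
# P196: a group presented with more generators than relators is not simple

If `r < m` then the group presented by `m` generators and `r` relators admits a
homomorphism `ψ` to the additive group of the rationals which is nonzero on some generator `g`;
the preimage of the subgroup generated by `2 ψ(g)` is a proper nontrivial normal subgroup.
-/

namespace Vale.Agent.Results.P196.DeficiencyObstruction

open Module

/-- The exponent-sum homomorphism with formal weights: a word is sent to the linear form
`v ↦ ∑ (exponent sum of generator j) * v j`. -/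
noncomputable def expo (m : ℕ) :
    FreeGroup (Fin m) →* Multiplicative ((Fin m → ℚ) →ₗ[ℚ] ℚ) :=
  FreeGroup.lift (fun j => Multiplicative.ofAdd (LinearMap.proj j))

/-- evaluation of a linear form at `v`, as a monoid hom of multiplicative types. -/
noncomputable def evalAt (m : ℕ) (v : Fin m → ℚ) :
    Multiplicative ((Fin m → ℚ) →ₗ[ℚ] ℚ) →* Multiplicative ℚ :=
  AddMonoidHom.toMultiplicative
    { toFun := fun f => f v
      map_zero' := rfl
      map_add' := fun _ _ => rfl }

theorem exists_weight (m r : ℕ) (rels : Fin r → FreeGroup (Fin m)) (h : r < m) :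
    ∃ v : Fin m → ℚ, v ≠ 0 ∧ ∀ i, (Multiplicative.toAdd (expo m (rels i))) v = 0 := by
  classical
  let L : (Fin m → ℚ) →ₗ[ℚ] (Fin r → ℚ) :=
    LinearMap.pi (fun i => Multiplicative.toAdd (expo m (rels i)))
  have hk : LinearMap.ker L ≠ ⊥ := by
    apply LinearMap.ker_ne_bot_of_finrank_lt
    simpa using h
  obtain ⟨v, hv, hv0⟩ := (Submodule.ne_bot_iff _).1 hk
  refine ⟨v, hv0, fun i => ?_⟩
  have := congrFun (LinearMap.mem_ker.1 hv) i
  simpa [L] using this

theorem exists_hom (m r : ℕ) (rels : Fin r → FreeGroup (Fin m)) (h : r < m) :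
    ∃ (ψ : PresentedGroup (Set.range rels) →* Multiplicative ℚ)
      (g : PresentedGroup (Set.range rels)), Multiplicative.toAdd (ψ g) ≠ 0 := by
  classical
  obtain ⟨v, hv0, hv⟩ := exists_weight m r rels h
  have hj : ∃ j, v j ≠ 0 := by
    by_contra hcon
    push Not at hcon
    exact hv0 (funext hcon)
  obtain ⟨j, hj⟩ := hj
  let f : Fin m → Multiplicative ℚ := fun k => Multiplicative.ofAdd (v k)
  have hlift : FreeGroup.lift f = (evalAt m v).comp (expo m) := by
    ext k
    simp [f, evalAt, expo]
  have hrel : ∀ w ∈ Set.range rels, FreeGroup.lift f w = 1 := by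
    rintro _ ⟨i, rfl⟩
    rw [hlift]
    have := hv i
    simp only [MonoidHom.comp_apply, evalAt]
    change Multiplicative.ofAdd ((Multiplicative.toAdd (expo m (rels i))) v) = 1
    rw [this]; rfl
  let ψ : PresentedGroup (Set.range rels) →* Multiplicative ℚ := PresentedGroup.toGroup hrel
  have hψ : ψ (PresentedGroup.of j) = Multiplicative.ofAdd (v j) := by
    simp [ψ, f, PresentedGroup.toGroup.of]
  refine ⟨ψ, PresentedGroup.of j, ?_⟩
  rw [hψ]
  simpa using hj

theorem result (m r : ℕ) (rels : Fin r → FreeGroup (Fin m)) (h : r < m) :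
    ¬ IsSimpleGroup (PresentedGroup (Set.range rels)) := by
  classical
  obtain ⟨ψ, g, hg⟩ := exists_hom m r rels h
  intro hs
  let N : Subgroup (PresentedGroup (Set.range rels)) :=
    (Subgroup.zpowers (ψ g ^ 2)).comap ψ
  have hN : N.Normal := inferInstance
  rcases hs.eq_bot_or_eq_top_of_normal N hN with h1 | h1
  · have hmem : g ^ 2 ∈ N := by
      simp only [N, Subgroup.mem_comap, map_pow]
      exact Subgroup.mem_zpowers _
    rw [h1, Subgroup.mem_bot] at hmem
    have h2 : ψ (g ^ 2) = 1 := by rw [hmem, map_one]
    have h3 := congrArg Multiplicative.toAdd h2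
    simp only [map_pow, toAdd_pow, toAdd_one] at h3
    rcases smul_eq_zero.1 h3 with h4 | h4
    · omega
    · exact hg h4
  · have hmem : g ∈ N := by rw [h1]; exact Subgroup.mem_top _
    simp only [N, Subgroup.mem_comap, Subgroup.mem_zpowers_iff] at hmem
    obtain ⟨k, hk⟩ := hmem
    have h3 := congrArg Multiplicative.toAdd hk
    simp only [toAdd_zpow, toAdd_pow] at h3
    set x : ℚ := Multiplicative.toAdd (ψ g) with hx
    have h4 : ((k : ℚ) * 2 - 1) * x = 0 := by
      have : (k : ℚ) * (2 * x) = x := by simpa [zsmul_eq_mul, nsmul_eq_mul] using h3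
      linarith
    rcases mul_eq_zero.1 h4 with h5 | h5
    · have h6 : (k : ℚ) * 2 = 1 := by linarith
      have h7 : k * 2 = 1 := by exact_mod_cast h6
      omega
    · exact hg h5

end Vale.Agent.Results.P196.DeficiencyObstruction
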