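import Mathlib

/-!
# P196: a finitely generated simple group built from finite and abelian groups by extensions
and directed unions is finite
-/

namespace Vale.Agent.Results.P196.ElementaryAmenable

/-- The class of groups generated from finite groups and abelian groups by group extensions and
directed unions. -/
inductive EG : (G : Type) → [Group G] → Prop
  | of_finite (G : Type) [Group G] [Finite G] : EG G
  | of_comm (G : Type) [Group G] (h : ∀ a b : G, a * b = b * a) : EG G
  | of_ext (G : Type) [Group G] (N : Subgroup G) [N.Normal] : EG N → EG (G ⧸ N) → EG G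
  | of_union (G : Type) [Group G] (ι : Type) [Nonempty ι] (H : ι → Subgroup G)
      (hd : Directed (· ≤ ·) H) (hU : ∀ g, ∃ i, g ∈ H i) : (∀ i, EG (H i)) → EG G

theorem top_case {G : Type} [Group G] (K : Subgroup G) (hK : K = ⊤)
    (ih : Group.FG K → IsSimpleGroup K → Finite K) (hfg : Group.FG G) (hs : IsSimpleGroup G) :
    Finite G := by
  subst hK
  have h1 : Group.FG (⊤ : Subgroup G) :=
    Group.fg_of_surjective (f := (Subgroup.topEquiv (G := G)).symm.toMonoidHom)
      (Subgroup.topEquiv (G := G)).symm.surjective
  have h2 : IsSimpleGroup (⊤ : Subgroup G) := (Subgroup.topEquiv (G := G)).isSimpleGroup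
  have h3 := ih h1 h2
  exact Finite.of_equiv _ (Subgroup.topEquiv (G := G)).toEquiv

theorem comm_case {G : Type} [Group G] (hc : ∀ a b : G, a * b = b * a) (hs : IsSimpleGroup G) :
    Finite G := by
  have hnorm : ∀ K : Subgroup G, K.Normal := by
    intro K
    refine ⟨fun n hn x => ?_⟩
    rw [hc x n, mul_assoc, mul_inv_cancel, mul_one]
    exact hn
  obtain ⟨g, hg⟩ := exists_ne (1 : G)
  have hZ : Subgroup.zpowers g = ⊤ := by
    rcases hs.eq_bot_or_eq_top_of_normal _ (hnorm (Subgroup.zpowers g)) with h | h
    · exact absurd (Subgroup.zpowers_eq_bot.1 h) hg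
    · exact h
  have hfin : IsOfFinOrder g := by
    rcases hs.eq_bot_or_eq_top_of_normal _ (hnorm (Subgroup.zpowers (g ^ 2))) with h | h
    · exact isOfFinOrder_iff_pow_eq_one.2 ⟨2, by norm_num, Subgroup.zpowers_eq_bot.1 h⟩
    · have hmem : g ∈ Subgroup.zpowers (g ^ 2) := by rw [h]; exact Subgroup.mem_top _
      obtain ⟨k, hk⟩ := Subgroup.mem_zpowers_iff.1 hmem
      refine isOfFinOrder_iff_zpow_eq_one.2 ⟨2 * k - 1, by omega, ?_⟩
      have h2 : g ^ (2 * k) = g := by
        rw [zpow_mul]
        exact_mod_cast hk
      rw [zpow_sub, zpow_one, h2, mul_inv_cancel]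
  have hfz : Finite (Subgroup.zpowers g) := by
    have := (finite_zpowers (a := g)).2 hfin
    exact this.to_subtype
  rw [hZ] at hfz
  exact Finite.of_equiv _ (Subgroup.topEquiv (G := G)).toEquiv

theorem aux {G : Type} [Group G] (h : EG G) : Group.FG G → IsSimpleGroup G → Finite G := by
  induction h with
  | of_finite G => intro _ _; infer_instance
  | of_comm G hc => intro _ hs; exact comm_case hc hs
  | of_ext G N _ _ ihN ihQ =>
    intro hfg hs
    rcases hs.eq_bot_or_eq_top_of_normal N inferInstance with h | h
    · subst h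
      have h1 : Group.FG (G ⧸ (⊥ : Subgroup G)) :=
        Group.fg_of_surjective (QuotientGroup.mk'_surjective _)
      have h2 : IsSimpleGroup (G ⧸ (⊥ : Subgroup G)) :=
        (QuotientGroup.quotientBot (G := G)).isSimpleGroup
      have h3 := ihQ h1 h2
      exact Finite.of_equiv _ (QuotientGroup.quotientBot (G := G)).toEquiv
    · exact top_case N h ihN hfg hs
  | of_union G ι H hd hU _ ih =>
    intro hfg hs
    classical
    obtain ⟨S, hS, hSfin⟩ := Group.fg_iff.1 hfg
    choose idx hidx using hU
    obtain ⟨z, hz⟩ := hd.finset_le (hSfin.toFinset.image idx)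
    have hsub : S ⊆ (H z : Set G) := by
      intro g hg
      have : idx g ∈ hSfin.toFinset.image idx :=
        Finset.mem_image_of_mem _ (hSfin.mem_toFinset.2 hg)
      exact hz _ this (hidx g)
    have htop : H z = ⊤ := by
      rw [eq_top_iff, ← hS]
      exact (Subgroup.closure_le _).2 hsub
    exact top_case (H z) htop (ih z) hfg hs

theorem result (G : Type) [Group G] [Group.FG G] [IsSimpleGroup G] (h : EG G) : Finite G :=
  aux h inferInstance inferInstance

end Vale.Agent.Results.P196.ElementaryAmenable
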